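import Mathlib

/-! Definitions for the affine Bernstein problem on `ℝⁿ = Fin n → ℝ`. -/

namespace Vale.Agent.P252

/-- The coordinate derivative `∂ᵢ u`. -/
noncomputable def pd {n : ℕ} (i : Fin n) (u : (Fin n → ℝ) → ℝ) : (Fin n → ℝ) → ℝ :=
  fun x => fderiv ℝ u x (Pi.single i 1)

/-- The Hessian matrix `D²u(x)`, with entries `∂ᵢ ∂ⱼ u (x)`. -/
noncomputable def hess {n : ℕ} (u : (Fin n → ℝ) → ℝ) (x : Fin n → ℝ) :
    Matrix (Fin n) (Fin n) ℝ :=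
  Matrix.of fun i j => pd i (pd j u) x

/-- `w = (det D²u) ^ (-(n+1)/(n+2))` (real power). -/
noncomputable def wfun {n : ℕ} (u : (Fin n → ℝ) → ℝ) : (Fin n → ℝ) → ℝ :=
  fun x => (hess u x).det ^ (-((n:ℝ) + 1) / ((n:ℝ) + 2))

/-- The cofactor matrix `U = det (D²u) · (D²u)⁻¹`. -/
noncomputable def cof {n : ℕ} (u : (Fin n → ℝ) → ℝ) (x : Fin n → ℝ) :
    Matrix (Fin n) (Fin n) ℝ :=
  (hess u x).det • (hess u x)⁻¹

/-- The affine maximal equation `∑ U^{ij} ∂ᵢⱼ w = 0` on all of `ℝⁿ`. -/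
def AffineMaximal {n : ℕ} (u : (Fin n → ℝ) → ℝ) : Prop :=
  ∀ x, ∑ i, ∑ j, cof u x i j * pd i (pd j (wfun u)) x = 0

end Vale.Agent.P252
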