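import Mathlib

/-! Analytic germ of the radial profile at the singular point `z = 0`. -/

namespace Vale.Agent.P252

open Set Filter Topology
open scoped unitInterval ContDiff

abbrev CE := C(I, ℝ)

noncomputable def pj (τ : ℝ) : I := projIcc 0 1 zero_le_one τ

lemma continuous_pj : Continuous pj := continuous_projIcc (h := zero_le_one)

lemma pj_coe {τ : ℝ} (h : τ ∈ Icc (0:ℝ) 1) : (pj τ : ℝ) = τ := by
  simp [pj, projIcc_of_mem _ h]

noncomputable def Tfun (j : ℕ) (h : CE) : CE :=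
  ⟨fun s => ∫ τ in (0:ℝ)..1, τ ^ j * h (s * pj τ), by
    apply intervalIntegral.continuous_parametric_intervalIntegral_of_continuous'
    have := continuous_pj
    have h2 : Continuous fun p : I × ℝ => p.1 * pj p.2 := by fun_prop
    exact (continuous_snd.pow j).mul (h.continuous.comp h2)⟩

lemma Tint (j : ℕ) (h : CE) (s : I) :
    IntervalIntegrable (fun τ : ℝ => τ ^ j * h (s * pj τ)) MeasureTheory.volume 0 1 := by
  apply Continuous.intervalIntegrable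
  have := continuous_pj
  have h2 : Continuous fun p : ℝ => s * pj p := by fun_prop
  exact (continuous_id.pow j).mul (h.continuous.comp h2)

noncomputable def Tlin (j : ℕ) : CE →ₗ[ℝ] CE where
  toFun := Tfun j
  map_add' h k := by
    ext s
    simp only [Tfun, ContinuousMap.coe_mk, ContinuousMap.add_apply, mul_add]
    exact intervalIntegral.integral_add (Tint j h s) (Tint j k s)
  map_smul' c h := by
    ext s
    simp only [Tfun, ContinuousMap.coe_mk, ContinuousMap.smul_apply, smul_eq_mul, RingHom.id_apply]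
    rw [← intervalIntegral.integral_const_mul]
    congr 1; ext τ; ring

noncomputable def T (j : ℕ) : CE →L[ℝ] CE :=
  (Tlin j).mkContinuous 1 (by
    intro h
    rw [one_mul, ContinuousMap.norm_le _ (norm_nonneg _)]
    intro s
    have : ‖∫ τ in (0:ℝ)..1, τ ^ j * h (s * pj τ)‖ ≤ ‖h‖ * |1 - 0| := by
      apply intervalIntegral.norm_integral_le_of_norm_le_const
      intro τ hτ
      rw [uIoc_of_le zero_le_one] at hτ
      rw [norm_mul, norm_pow, Real.norm_of_nonneg hτ.1.le]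
      calc τ ^ j * ‖h (s * pj τ)‖ ≤ 1 * ‖h‖ := by
            apply mul_le_mul (pow_le_one₀ hτ.1.le hτ.2) (h.norm_coe_le_norm _) (norm_nonneg _)
              zero_le_one
        _ = ‖h‖ := one_mul _
    simpa [Tlin, Tfun] using this)

lemma T_apply (j : ℕ) (h : CE) (s : I) :
    T j h s = ∫ τ in (0:ℝ)..1, τ ^ j * h (s * pj τ) := rfl

noncomputable def S (ρ : I) : CE →ₐ[ℝ] CE :=
  ContinuousMap.compRightAlgHom ℝ ℝ ⟨fun s => ρ * s, by fun_prop⟩

lemma S_apply (ρ : I) (h : CE) (s : I) : S ρ h s = h (ρ * s) := rfl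

lemma S_T (ρ : I) (j : ℕ) (h : CE) : S ρ (T j h) = T j (S ρ h) := by
  ext s
  simp only [S_apply, T_apply, mul_assoc]

lemma norm_S_le (ρ : I) (h : CE) : ‖S ρ h‖ ≤ ‖h‖ := by
  rw [ContinuousMap.norm_le _ (norm_nonneg _)]
  intro s
  exact h.norm_coe_le_norm _

noncomputable def zeta : CE := ⟨fun s => (s:ℝ) ^ 2, by fun_prop⟩

lemma S_zeta (ρ : I) (ε : ℝ) : S ρ (ε • zeta) = (ε * (ρ:ℝ) ^ 2) • zeta := by
  ext s
  simp [S_apply, zeta]; ring

/-- the numerator of the second equation -/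
def NN {A : Type} [CommRing A] [Algebra ℝ A] (M : ℝ) (Z a g : A) : A :=
  (2:ℝ) • (Z * a * a) + (2 * M + 3) • a - (M ^ 2) • g + (6:ℝ) • (Z * a * g)

noncomputable def BB {A : Type} [CommRing A] [Algebra ℝ A] (M : ℝ) (Z a g i : A) : A :=
  (1 / M) • ((2:ℝ) • (a * a) + (6:ℝ) • (a * g)) - (2 / M) • (a * i * NN M Z a g)
    + g * NN M Z a g * i

noncomputable def G (m : ℕ) (Z : CE) (y : CE × CE × CE) : CE × CE × CE :=
  (Z * T 1 (y.1 * (y.2.1 - y.1)),
   T (m + 1) (Z * (((2 * (m:ℝ) + 3) / m) • T 1 (y.1 * (y.2.1 - y.1))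
      + BB m Z y.1 y.2.1 y.2.2)),
   (-2 / (m:ℝ)) • (Z * y.1 * y.2.2))

noncomputable def S3 (ρ : I) (y : CE × CE × CE) : CE × CE × CE := (S ρ y.1, S ρ y.2.1, S ρ y.2.2)

lemma S3_G (ρ : I) (m : ℕ) (Z : CE) (y : CE × CE × CE) :
    S3 ρ (G m Z y) = G m (S ρ Z) (S3 ρ y) := by
  simp only [S3, G, BB, NN, map_mul, map_add, map_sub, map_smul, S_T]

noncomputable def y0 (m : ℕ) : CE × CE × CE :=
  (1, ((2 * (m:ℝ) + 3) / (m * (m + 2))) • 1, (1 / (m:ℝ)) • 1)

noncomputable def FF (m : ℕ) (v : ℝ × (CE × CE × CE)) : CE × CE × CE :=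
  v.2 - G m (v.1 • zeta) v.2

lemma contDiff_FF (m : ℕ) : ContDiff ℝ ω (FF m) := by
  have hT : ∀ j, ContDiff ℝ ω (T j) := fun j => (T j).contDiff
  unfold FF G BB NN
  fun_prop

lemma FF_zero (m : ℕ) (y : CE × CE × CE) : FF m (0, y) = y := by
  simp [FF, G]

lemma S3_sub (ρ : I) (y y' : CE × CE × CE) : S3 ρ (y - y') = S3 ρ y - S3 ρ y' := by
  simp [S3]

lemma S3_y0 (ρ : I) (m : ℕ) : S3 ρ (y0 m) = y0 m := by
  simp [S3, y0]

lemma norm_S3_le (ρ : I) (y : CE × CE × CE) : ‖S3 ρ y‖ ≤ ‖y‖ := by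
  simp only [S3, Prod.norm_def]
  exact max_le_max (norm_S_le _ _) (max_le_max (norm_S_le _ _) (norm_S_le _ _))

lemma exists_psi (m : ℕ) : ∃ δ > (0:ℝ), ∃ ψ : ℝ → CE × CE × CE, ψ 0 = y0 m ∧
    (∀ ε, |ε| < δ → ContDiffAt ℝ ω ψ ε ∧ FF m (ε, ψ ε) = y0 m ∧
      ∀ ρ : I, ψ (ε * (ρ:ℝ) ^ 2) = S3 ρ (ψ ε)) := by
  have cdf : ContDiffAt ℝ ω (FF m) (0, y0 m) := (contDiff_FF m).contDiffAt
  have pn : (ω : WithTop ℕ∞) ≠ 0 := by simp
  have hid : fderiv ℝ (FF m) (0, y0 m) ∘L ContinuousLinearMap.inr ℝ ℝ (CE × CE × CE)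
      = ContinuousLinearMap.id ℝ _ := by
    have h1 : HasFDerivAt (fun y => FF m (0, y))
        (fderiv ℝ (FF m) (0, y0 m) ∘L ContinuousLinearMap.inr ℝ ℝ (CE × CE × CE)) (y0 m) :=
      (cdf.differentiableAt pn).hasFDerivAt.comp (y0 m) (hasFDerivAt_prodMk_right 0 (y0 m))
    have h2 : (fun y => FF m (0, y)) = id := by ext1 y; exact FF_zero m y
    rw [h2] at h1
    exact h1.unique (hasFDerivAt_id _)
  have if₂ : (fderiv ℝ (FF m) (0, y0 m) ∘L
      ContinuousLinearMap.inr ℝ ℝ (CE × CE × CE)).IsInvertible := by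
    rw [hid]; exact ⟨ContinuousLinearEquiv.refl ℝ _, rfl⟩
  set ψ := cdf.implicitFunction pn if₂ with hψ
  have h0 : ψ 0 = y0 m := cdf.implicitFunction_apply_self pn if₂
  have hc : ContDiffAt ℝ ω ψ 0 := cdf.contDiffAt_implicitFunction pn if₂
  have he := cdf.eventually_apply_eq_iff_implicitFunction pn if₂
  have he2 := cdf.eventually_apply_implicitFunction pn if₂
  rw [FF_zero] at he he2
  obtain ⟨η, hη, hball⟩ := Metric.eventually_nhds_iff.1 he
  have h3 : ∀ᶠ ε in 𝓝 (0:ℝ), dist (ψ ε) (y0 m) < η := by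
    have := hc.continuousAt.tendsto
    rw [h0] at this
    exact Metric.tendsto_nhds.1 this η hη
  have h4 : ∀ᶠ ε in 𝓝 (0:ℝ), ContDiffAt ℝ ω ψ ε := hc.eventually (by simp)
  have h5 : ∀ᶠ ε in 𝓝 (0:ℝ), |ε| < η := by
    have := Metric.ball_mem_nhds (0:ℝ) hη
    filter_upwards [this] with ε hε
    simpa using hε
  obtain ⟨δ, hδ, hall⟩ := Metric.eventually_nhds_iff.1 (he2.and (h3.and (h4.and h5)))
  refine ⟨δ, hδ, ψ, h0, fun ε hε => ?_⟩
  obtain ⟨a1, a2, a3, a4⟩ := hall (y := ε) (by simpa using hε)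
  refine ⟨a3, a1, fun ρ => ?_⟩
  have hρ : (ρ:ℝ) ^ 2 ≤ 1 := pow_le_one₀ ρ.2.1 ρ.2.2
  have hd : dist (ε * (ρ:ℝ) ^ 2, S3 ρ (ψ ε)) (0, y0 m) < η := by
    rw [Prod.dist_eq]
    apply max_lt
    · simp only [dist_zero_right, Real.norm_eq_abs, abs_mul, abs_pow, sq_abs]
      nlinarith [abs_nonneg ε, sq_nonneg (ρ:ℝ)]
    · rw [dist_eq_norm] at a2 ⊢
      simp only
      rw [← S3_y0 ρ m, ← S3_sub]
      exact (norm_S3_le _ _).trans_lt a2
  apply (hball hd).1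
  simp only [FF] at a1 ⊢
  rw [← S_zeta, ← S3_G, ← S3_sub, a1, S3_y0]

end Vale.Agent.P252
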