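import Vale.Agent.P252.Germ

/-! The differential equations satisfied by the germ. -/

namespace Vale.Agent.P252

open Set Filter Topology
open scoped unitInterval ContDiff

lemma scale_deriv {δ z : ℝ} (hz : z ∈ Ioo 0 δ) (j : ℕ) {φ H : ℝ → ℝ} {φ' : ℝ}
    (hH : ContinuousOn H (Ioo (-δ) δ)) (hφ : HasDerivAt φ φ' z)
    (h : ∀ y ∈ Ioo 0 δ, φ y = ∫ τ in (0:ℝ)..1, τ ^ j * H (y * τ ^ 2)) :
    2 * z * φ' + (j + 1) * φ z = H z := by
  obtain ⟨r, hr, rfl⟩ : ∃ r > 0, z = r ^ 2 :=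
    ⟨√z, Real.sqrt_pos.2 hz.1, (Real.sq_sqrt hz.1.le).symm⟩
  have hδ : 0 < δ := hz.1.trans hz.2
  set U : Set ℝ := {x | x ^ 2 < δ} with hU
  have hUo : IsOpen U := isOpen_lt (by fun_prop) continuous_const
  have hrU : r ∈ U := hz.2
  set g : ℝ → ℝ := fun x => x ^ j * H (x ^ 2) with hg
  have hgc : ContinuousOn g U := by
    apply ContinuousOn.mul (by fun_prop)
    apply hH.comp (by fun_prop)
    intro x hx
    exact ⟨by nlinarith [sq_nonneg x], hx⟩
  have hsub : uIcc 0 r ⊆ U := by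
    intro x hx
    rw [uIcc_of_le hr.le] at hx
    have : x ^ 2 ≤ r ^ 2 := pow_le_pow_left₀ hx.1 hx.2 2
    exact this.trans_lt hz.2
  have h1 : HasDerivAt (fun x => ∫ τ in (0:ℝ)..x, g τ) (g r) r :=
    intervalIntegral.integral_hasDerivAt_right (hgc.mono hsub).intervalIntegrable
      (hgc.stronglyMeasurableAtFilter hUo r hrU) (hgc.continuousAt (hUo.mem_nhds hrU))
  have h2 : HasDerivAt (fun x => x ^ (j + 1) * φ (x ^ 2))
      (((j + 1 : ℕ) : ℝ) * r ^ j * φ (r ^ 2) + r ^ (j + 1) * (φ' * (2 * r))) r := by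
    have a1 : HasDerivAt (fun x : ℝ => x ^ 2) (2 * r) r := by
      simpa using hasDerivAt_pow 2 r
    have a2 : HasDerivAt (fun x : ℝ => φ (x ^ 2)) (φ' * (2 * r)) r :=
      HasDerivAt.comp (h := fun x : ℝ => x ^ 2) r hφ a1
    have a3 := hasDerivAt_pow (j + 1) r
    exact (a3.fun_mul a2).congr_deriv (by simp)
  have h3 : (fun x => x ^ (j + 1) * φ (x ^ 2)) =ᶠ[𝓝 r] fun x => ∫ τ in (0:ℝ)..x, g τ := by
    filter_upwards [hUo.mem_nhds hrU, Ioi_mem_nhds hr] with x hx hx0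
    have hx0' : 0 < x := hx0
    rw [h (x ^ 2) ⟨by positivity, hx⟩]
    have := intervalIntegral.mul_integral_comp_mul_left (f := g) (a := 0) (b := 1) x
    rw [mul_zero, mul_one] at this
    rw [← this, pow_succ', mul_assoc, ← intervalIntegral.integral_const_mul]
    congr 2
    ext τ
    simp only [hg, mul_pow]; ring
  have h4 := h2.unique (h1.congr_of_eventuallyEq h3)
  simp only [hg] at h4
  have hrj : r ^ j ≠ 0 := by positivity
  apply mul_left_cancel₀ hrj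
  rw [← h4]; push_cast; ring

/-- right-hand side of the equation for `c` -/
noncomputable def Ph (M a c : ℝ) : ℝ :=
  (2 * a ^ 2 + (2 * M - 3) * a + M ^ 2 - (M ^ 2 - 6 * a) * c) / (2 * a + M)

lemma exists_germ (m : ℕ) (hm : 1 ≤ m) : ∃ δ > (0:ℝ), ∃ α c : ℝ → ℝ,
    ContDiffOn ℝ ∞ α (Ioo (-δ) δ) ∧ ContDiffOn ℝ ∞ c (Ioo (-δ) δ) ∧ α 0 = 1 ∧ c 0 = 1 ∧
    ∀ z ∈ Ioo 0 δ, HasDerivAt α (α z * (c z - 1 - z * α z) / (2 * z)) z ∧
      HasDerivAt c (c z * Ph m (z * α z) (c z) / (2 * z)) z := by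
  obtain ⟨δ, hδ, ψ, h0, hψ⟩ := exists_psi m
  have hM : (0:ℝ) < m := by exact_mod_cast hm
  set ev : CE →L[ℝ] ℝ := ContinuousMap.evalCLM ℝ (1 : I) with hev
  have hevc : ContDiff ℝ ω ev := ev.contDiff
  have hT : ContDiff ℝ ω (T 1) := (T 1).contDiff
  set A : ℝ → ℝ := fun ε => ev (ψ ε).1 with hA
  set Γ : ℝ → ℝ := fun ε => ev (ψ ε).2.1 with hΓ
  set J : ℝ → ℝ := fun ε => ev (ψ ε).2.2 with hJ
  set F : ℝ → ℝ := fun ε => ev (T 1 ((ψ ε).1 * ((ψ ε).2.1 - (ψ ε).1))) with hF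
  have habs : ∀ ε ∈ Ioo (-δ) δ, |ε| < δ := fun ε h => abs_lt.2 h
  have cA : ∀ ε ∈ Ioo (-δ) δ, ContDiffAt ℝ ω A ε := fun ε h => by
    have := (hψ ε (habs ε h)).1
    simp only [hA]; fun_prop
  have cΓ : ∀ ε ∈ Ioo (-δ) δ, ContDiffAt ℝ ω Γ ε := fun ε h => by
    have := (hψ ε (habs ε h)).1
    simp only [hΓ]; fun_prop
  have cJ : ∀ ε ∈ Ioo (-δ) δ, ContDiffAt ℝ ω J ε := fun ε h => by
    have := (hψ ε (habs ε h)).1
    simp only [hJ]; fun_prop
  have cF : ∀ ε ∈ Ioo (-δ) δ, ContDiffAt ℝ ω F ε := fun ε h => by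
    have := (hψ ε (habs ε h)).1
    simp only [hF]; fun_prop
  have evs : ∀ h : CE, ev h = h 1 := fun h => rfl
  have sA : ∀ ε ∈ Ioo (-δ) δ, ∀ ρ : I, (ψ ε).1 ρ = A (ε * (ρ:ℝ) ^ 2) := fun ε h ρ => by
    simp only [hA, (hψ ε (habs ε h)).2.2 ρ, evs, S3, S_apply, mul_one]
  have sΓ : ∀ ε ∈ Ioo (-δ) δ, ∀ ρ : I, (ψ ε).2.1 ρ = Γ (ε * (ρ:ℝ) ^ 2) := fun ε h ρ => by
    simp only [hΓ, (hψ ε (habs ε h)).2.2 ρ, evs, S3, S_apply, mul_one]
  have sJ : ∀ ε ∈ Ioo (-δ) δ, ∀ ρ : I, (ψ ε).2.2 ρ = J (ε * (ρ:ℝ) ^ 2) := fun ε h ρ => by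
    simp only [hJ, (hψ ε (habs ε h)).2.2 ρ, evs, S3, S_apply, mul_one]
  have sF : ∀ ε ∈ Ioo (-δ) δ, ∀ ρ : I, T 1 ((ψ ε).1 * ((ψ ε).2.1 - (ψ ε).1)) ρ
      = F (ε * (ρ:ℝ) ^ 2) := fun ε h ρ => by
    simp only [hF, (hψ ε (habs ε h)).2.2 ρ, evs, S3]
    rw [← map_sub, ← map_mul, ← S_T, S_apply, mul_one]
  have e1 : ∀ ε ∈ Ioo (-δ) δ, A ε = 1 + ε * F ε := fun ε h => by
    have := congrArg (fun y : CE × CE × CE => y.1 1) (hψ ε (habs ε h)).2.1
    simp only [FF, G, y0, Prod.fst_sub, ContinuousMap.sub_apply, ContinuousMap.mul_apply,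
      ContinuousMap.smul_apply, zeta, ContinuousMap.coe_mk, ContinuousMap.one_apply,
      smul_eq_mul, Icc.coe_one, one_pow, mul_one] at this
    simp only [hA, hF, evs]; linarith
  have e3 : ∀ ε ∈ Ioo (-δ) δ, J ε * (2 * (ε * A ε) + m) = 1 := fun ε h => by
    have := congrArg (fun y : CE × CE × CE => y.2.2 1) (hψ ε (habs ε h)).2.1
    simp only [FF, G, y0, Prod.snd_sub, ContinuousMap.sub_apply, ContinuousMap.mul_apply,
      ContinuousMap.smul_apply, zeta, ContinuousMap.coe_mk, ContinuousMap.one_apply,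
      smul_eq_mul, Icc.coe_one, one_pow, mul_one] at this
    simp only [hA, hJ, evs]
    field_simp at this
    linarith
  set g0 : ℝ := (2 * (m:ℝ) + 3) / (m * (m + 2)) with hg0
  set H2 : ℝ → ℝ := fun y => y * ((2 * (m:ℝ) + 3) / m * F y + BB m y (A y) (Γ y) (J y)) with hH2
  have e2 : ∀ ε ∈ Ioo (-δ) δ, Γ ε - g0 = ∫ τ in (0:ℝ)..1, τ ^ (m + 1) * H2 (ε * τ ^ 2) :=
    fun ε h => by
    have := congrArg (fun y : CE × CE × CE => y.2.1 1) (hψ ε (habs ε h)).2.1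
    simp only [FF, G, y0, Prod.snd_sub, Prod.fst_sub, ContinuousMap.sub_apply,
      ContinuousMap.smul_apply, ContinuousMap.one_apply,
      smul_eq_mul, mul_one] at this
    rw [T_apply] at this
    have h2 : Γ ε = (ψ ε).2.1 1 := rfl
    rw [h2, ← hg0] at *
    rw [← this, sub_sub_cancel]
    apply intervalIntegral.integral_congr
    intro τ hτ
    rw [uIcc_of_le zero_le_one] at hτ
    simp only [one_mul, hH2, BB, NN, ContinuousMap.sub_apply, ContinuousMap.mul_apply,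
      ContinuousMap.add_apply, ContinuousMap.smul_apply, zeta, ContinuousMap.coe_mk,
      smul_eq_mul, sF ε h, sA ε h, sΓ ε h, sJ ε h, pj_coe hτ]
  have e4 : ∀ ε ∈ Ioo (-δ) δ, F ε = ∫ τ in (0:ℝ)..1, τ ^ 1 *
      (fun y => A y * (Γ y - A y)) (ε * τ ^ 2) := fun ε h => by
    simp only [hF, evs, T_apply]
    apply intervalIntegral.integral_congr
    intro τ hτ
    rw [uIcc_of_le zero_le_one] at hτ
    simp only [one_mul, ContinuousMap.sub_apply, ContinuousMap.mul_apply,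
      sA ε h, sΓ ε h, pj_coe hτ]
  have ccA : ContinuousOn A (Ioo (-δ) δ) := fun ε h => (cA ε h).continuousAt.continuousWithinAt
  have ccΓ : ContinuousOn Γ (Ioo (-δ) δ) := fun ε h => (cΓ ε h).continuousAt.continuousWithinAt
  have ccJ : ContinuousOn J (Ioo (-δ) δ) := fun ε h => (cJ ε h).continuousAt.continuousWithinAt
  have ccF : ContinuousOn F (Ioo (-δ) δ) := fun ε h => (cF ε h).continuousAt.continuousWithinAt
  refine ⟨δ, hδ, A, fun z => 1 + z * Γ z, fun z hz => ((cA z hz).of_le le_top).contDiffWithinAt,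
    fun z hz => ?_, ?_, by simp, fun z hz => ?_⟩
  · have := (cΓ z hz).of_le (le_top : ∞ ≤ ω)
    exact (contDiffAt_const.add (contDiffAt_id.mul this)).contDiffWithinAt
  · rw [e1 0 ⟨by linarith, hδ⟩]; simp
  have hz' : z ∈ Ioo (-δ) δ := ⟨by linarith [hz.1], hz.2⟩
  have sub : ∀ y ∈ Ioo 0 δ, y ∈ Ioo (-δ) δ := fun y hy => ⟨by linarith [hy.1], hy.2⟩
  have dF := ((cF z hz').differentiableAt (by simp)).hasDerivAt
  have dΓ := ((cΓ z hz').differentiableAt (by simp)).hasDerivAt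
  have k1 := scale_deriv hz 1 (H := fun y => A y * (Γ y - A y)) (ccA.mul (ccΓ.sub ccA)) dF
    (fun y hy => e4 y (sub y hy))
  have ccH2 : ContinuousOn H2 (Ioo (-δ) δ) := by
    simp only [hH2, BB, NN, smul_eq_mul]
    fun_prop
  have k2 := scale_deriv hz (m + 1) ccH2 (dΓ.sub_const g0) (fun y hy => e2 y (sub y hy))
  have hz0 : z ≠ 0 := hz.1.ne'
  constructor
  · have h1 : HasDerivAt (fun y => 1 + y * F y) (1 * F z + z * deriv F z) z :=
      ((hasDerivAt_id z).mul dF).const_add 1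
    have h2 : A =ᶠ[𝓝 z] fun y => 1 + y * F y := by
      filter_upwards [isOpen_Ioo.mem_nhds hz'] with y hy using e1 y hy
    apply (h1.congr_of_eventuallyEq h2).congr_deriv
    push_cast at k1
    rw [eq_div_iff (by simpa using hz0)]
    linear_combination z * k1
  · have h1 : HasDerivAt (fun y => 1 + y * Γ y) (1 * Γ z + z * deriv Γ z) z :=
      ((hasDerivAt_id z).mul dΓ).const_add 1
    apply h1.congr_deriv
    have q1 := e1 z hz'
    have q3 := e3 z hz'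
    have q4 : 2 * (z * A z) + m ≠ 0 := by
      intro h; rw [h] at q3; simp at q3
    have q5 : J z = 1 / (2 * (z * A z) + m) := by
      rw [eq_div_iff q4]; exact q3
    have q6 : F z = (A z - 1) / z := by field_simp; linarith
    have q7 : deriv Γ z = (H2 z - ((m + 1 : ℕ) + 1) * (Γ z - g0)) / (2 * z) := by
      field_simp; linarith
    rw [q7]
    simp only [hH2, BB, NN, smul_eq_mul, q5, q6, hg0, Ph]
    push_cast
    generalize hD : 2 * (z * A z) + (m:ℝ) = D at q4 ⊢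
    field_simp
    rw [← hD]
    ring

end Vale.Agent.P252
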