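import Vale.Agent.P252.Germ2

/-! Global continuation of the radial profile. -/

namespace Vale.Agent.P252

open Set Filter Topology
open scoped ContDiff NNReal

lemma global_ode {E : Type} [NormedAddCommGroup E] [NormedSpace ℝ E] [CompleteSpace E]
    (V : E → E) (K L : ℝ≥0) (hK : LipschitzWith K V) (hL : ∀ x, ‖V x‖ ≤ L) (x0 : E) :
    ∃ Y : ℝ → E, Y 0 = x0 ∧ ∀ s, HasDerivAt Y (V (Y s)) s := by
  have key : ∀ k : ℕ, ∃ Y : ℝ → E, Y 0 = x0 ∧ ∀ s ∈ Ioo (-(k:ℝ)) k, HasDerivAt Y (V (Y s)) s := by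
    intro k
    have h0 : (0:ℝ) ∈ Icc (-(k:ℝ)) k := ⟨by simp, by simp⟩
    have hp : IsPicardLindelof (fun _ => V) (⟨0, h0⟩ : Icc (-(k:ℝ)) k) x0 (L * k) 0 L K :=
      ⟨fun _ _ => hK.lipschitzOnWith, fun _ _ => continuousOn_const, fun _ _ x _ => hL x, by simp⟩
    obtain ⟨Y, h1, h2⟩ := hp.exists_eq_forall_mem_Icc_hasDerivWithinAt₀
    exact ⟨Y, h1, fun s hs => (h2 s (Ioo_subset_Icc_self hs)).hasDerivAt (Icc_mem_nhds hs.1 hs.2)⟩
  choose Y h0 hY using key
  have uniq : ∀ k l : ℕ, ∀ t : ℝ, |t| < k → |t| < l → Y k t = Y l t := by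
    intro k l t hk hl
    have hr : 0 < min (k:ℝ) l := lt_min ((abs_nonneg t).trans_lt hk) ((abs_nonneg t).trans_lt hl)
    have := ODE_solution_unique_of_mem_Ioo (v := fun _ => V) (s := fun _ => univ) (K := K)
      (a := -min (k:ℝ) l) (b := min (k:ℝ) l) (t₀ := 0) (f := Y k) (g := Y l)
      (fun _ _ => hK.lipschitzOnWith) ⟨by linarith, hr⟩
      (fun s hs => ⟨hY k s ⟨by linarith [hs.1, min_le_left (k:ℝ) l],
        hs.2.trans_le (min_le_left _ _)⟩, mem_univ _⟩)
      (fun s hs => ⟨hY l s ⟨by linarith [hs.1, min_le_right (k:ℝ) l],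
        hs.2.trans_le (min_le_right _ _)⟩, mem_univ _⟩) (by rw [h0, h0])
    exact this (abs_lt.1 (lt_min hk hl))
  have hc : ∀ t : ℝ, |t| < ((⌈|t|⌉₊ + 1 : ℕ) : ℝ) := fun t => by
    push_cast; linarith [Nat.le_ceil |t|]
  refine ⟨fun t => Y (⌈|t|⌉₊ + 1) t, h0 _, fun s => ?_⟩
  have h1 := hY (⌈|s|⌉₊ + 1) s (abs_lt.1 (hc s))
  apply h1.congr_of_eventuallyEq
  have : ∀ᶠ t in 𝓝 s, |t| < ((⌈|s|⌉₊ + 1 : ℕ) : ℝ) :=
    (continuous_abs.tendsto s).eventually (gt_mem_nhds (hc s))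
  filter_upwards [this] with t ht
  exact uniq _ _ t (hc t) ht

lemma barrier {y y' : ℝ → ℝ} {A : ℝ} (hy : ∀ s, HasDerivAt y (y' s) s) (h0 : y 0 ≤ A)
    (h : ∀ s, A < y s → y' s ≤ 0) {s : ℝ} (hs : 0 ≤ s) : y s ≤ A := by
  apply le_of_forall_pos_le_add
  intro ε hε
  have hs1 : 0 < s + 1 := by linarith
  have key := image_le_of_deriv_right_lt_deriv_boundary (f := y) (f' := y') (a := 0) (b := s)
    (fun t _ => (hy t).continuousAt.continuousWithinAt)
    (fun t _ => (hy t).hasDerivWithinAt) (B := fun t => A + ε / (s + 1) * (t + 1))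
    (B' := fun _ => ε / (s + 1))
    (by have : 0 < ε / (s + 1) := by positivity
        nlinarith)
    (fun t => by
      simpa using (((hasDerivAt_id t).add_const 1).const_mul (ε / (s + 1))).const_add A)
    (fun t ht hh => by
      have h1 : 0 < ε / (s + 1) := by positivity
      have : A < y t := by rw [hh]; nlinarith [ht.1]
      exact (h t this).trans_lt h1) (x := s) ⟨hs, le_rfl⟩
  rwa [div_mul_cancel₀ _ hs1.ne'] at key

noncomputable def cl (B x : ℝ) : ℝ := max 0 (min B x)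

lemma cl_mem {B : ℝ} (hB : 0 ≤ B) (x : ℝ) : cl B x ∈ Icc 0 B :=
  ⟨le_max_left _ _, max_le hB (min_le_left _ _)⟩

lemma cl_lip (B : ℝ) : LipschitzWith 1 (cl B) := (LipschitzWith.id.const_min B).const_max 0

noncomputable def W (M : ℝ) (p : ℝ × ℝ) : ℝ × ℝ := (p.1 * (p.2 + 1 - p.1), p.2 * Ph M p.1 p.2)

lemma exists_orbit {M : ℝ} (hM : 9 ≤ M) {a0 c0 : ℝ} (ha : 0 < a0) (ha1 : a0 ≤ 1)
    (hc : 1 / 2 ≤ c0) (hc2 : c0 ≤ 2) :
    ∃ Y : ℝ → ℝ × ℝ, Y 0 = (a0, c0) ∧ ∀ s, 0 ≤ s → HasDerivAt Y (W M (Y s)) s ∧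
      0 < (Y s).1 ∧ 0 < (Y s).2 := by
  set box : Set (ℝ × ℝ) := Icc 0 (M / 2) ×ˢ Icc 0 (M / 2 - 1) with hbox
  have hbc : IsCompact box := isCompact_Icc.prod isCompact_Icc
  have hW : ContDiffOn ℝ 1 (W M) box := by
    unfold W Ph
    apply ContDiffOn.prodMk (by fun_prop)
    apply ContDiffOn.mul (by fun_prop)
    apply ContDiffOn.div (by fun_prop) (by fun_prop)
    intro p hp
    have := hp.1.1
    linarith
  obtain ⟨K, hK⟩ := hW.exists_lipschitzOnWith one_ne_zero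
    ((convex_Icc _ _).prod (convex_Icc _ _)) hbc
  obtain ⟨L, hL⟩ := hbc.exists_bound_of_continuousOn hW.continuousOn
  set C : ℝ × ℝ → ℝ × ℝ := fun p => (cl (M / 2) p.1, cl (M / 2 - 1) p.2) with hC
  have hCm : ∀ p, C p ∈ box := fun p => ⟨cl_mem (by linarith) _, cl_mem (by linarith) _⟩
  have hCl : LipschitzWith (max (1 * 1) (1 * 1)) C :=
    ((cl_lip _).comp LipschitzWith.prod_fst).prodMk ((cl_lip _).comp LipschitzWith.prod_snd)
  have hV : LipschitzWith (K * max (1 * 1) (1 * 1)) (W M ∘ C) := by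
    rw [← lipschitzOnWith_univ]
    exact hK.comp hCl.lipschitzOnWith (fun p _ => hCm p)
  obtain ⟨Y, h0, hY⟩ := global_ode (W M ∘ C) _ (Real.toNNReal L) hV
    (fun x => (hL _ (hCm x)).trans (Real.le_coe_toNNReal L)) (a0, c0)
  have d1 : ∀ s, HasDerivAt (fun s => (Y s).1) (W M (C (Y s))).1 s := fun s => (hY s).fst
  have d2 : ∀ s, HasDerivAt (fun s => (Y s).2) (W M (C (Y s))).2 s := fun s => (hY s).snd
  refine ⟨Y, h0, fun s hs => ?_⟩
  have b1 : (Y s).1 ≤ M / 2 := by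
    refine barrier d1 (by rw [h0]; simp only; linarith) (fun t ht => ?_) hs
    have e : cl (M / 2) (Y t).1 = M / 2 := by
      rw [cl, min_eq_left ht.le, max_eq_right (by linarith)]
    have := (hCm (Y t)).2.2
    simp only [W, hC, e] at this ⊢
    nlinarith
  have b2 : (Y s).2 ≤ M / 2 - 1 := by
    refine barrier d2 (by rw [h0]; simp only; linarith) (fun t ht => ?_) hs
    have e : cl (M / 2 - 1) (Y t).2 = M / 2 - 1 := by
      rw [cl, min_eq_left ht.le, max_eq_right (by linarith)]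
    have := (hCm (Y t)).1
    simp only [W, hC, e, Ph] at this ⊢
    generalize cl (M / 2) (Y t).1 = a at this ⊢
    apply mul_nonpos_of_nonneg_of_nonpos (by linarith)
    apply div_nonpos_of_nonpos_of_nonneg _ (by linarith [this.1])
    have h1 : 0 ≤ (M / 2 - a) * (2 * (M / 2 + a) + 5 * M - 9) :=
      mul_nonneg (by linarith [this.2]) (by linarith [this.1])
    have h2 : 0 ≤ M * (M - 1) * (M - 9) := by
      apply mul_nonneg (mul_nonneg _ _) <;> linarith
    nlinarith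
  have b3 : -(Y s).1 ≤ -a0 := by
    refine barrier (fun s => (d1 s).neg) (by simp [h0]) (fun t ht => ?_) hs
    have h1 := (hCm (Y t)).1.1
    have h2 := (hCm (Y t)).2.1
    have h3 : cl (M / 2) (Y t).1 ≤ 1 :=
      max_le zero_le_one ((min_le_right _ _).trans (by simp only [Pi.neg_apply] at ht; linarith))
    simp only [W, hC] at h1 h2 ⊢
    have := mul_nonneg h1 (by linarith : 0 ≤ cl (M / 2 - 1) (Y t).2 + 1 - cl (M / 2) (Y t).1)
    linarith
  have b4 : -(Y s).2 ≤ -(1 / 2) := by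
    refine barrier (fun s => (d2 s).neg) (by simp only [Pi.neg_apply, h0]; linarith)
      (fun t ht => ?_) hs
    have h1 := (hCm (Y t)).1.1
    have h2 := (hCm (Y t)).2.1
    have h3 : cl (M / 2 - 1) (Y t).2 ≤ 1 :=
      max_le zero_le_one ((min_le_right _ _).trans (by simp only [Pi.neg_apply] at ht; linarith))
    simp only [W, hC, Ph] at h1 h2 ⊢
    generalize cl (M / 2) (Y t).1 = a at h1 ⊢
    generalize cl (M / 2 - 1) (Y t).2 = c at h2 h3 ⊢
    rw [neg_nonpos]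
    apply mul_nonneg h2
    apply div_nonneg _ (by linarith)
    have k1 : 0 ≤ a * c := mul_nonneg h1 h2
    have k2 : 0 ≤ M ^ 2 * (1 - c) := mul_nonneg (sq_nonneg _) (by linarith)
    have k3 : 0 ≤ (2 * M - 3) * a := mul_nonneg (by linarith) h1
    nlinarith [sq_nonneg a]
  have e : C (Y s) = Y s := by
    simp only [hC, cl]
    rw [min_eq_right b1, min_eq_right b2, max_eq_right (by linarith), max_eq_right (by linarith)]
  have := hY s
  simp only [Function.comp, e] at this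
  exact ⟨this, by linarith, by linarith⟩

noncomputable def gl (z0 : ℝ) (f g : ℝ → ℝ) (z : ℝ) : ℝ := if z ≤ z0 then f z else g z

lemma gl_lt {z0 z : ℝ} (f g : ℝ → ℝ) (h : z < z0) : gl z0 f g =ᶠ[𝓝 z] f := by
  filter_upwards [Iio_mem_nhds h] with y hy
  simp [gl, le_of_lt (mem_Iio.1 hy)]

lemma gl_deriv {z0 z d : ℝ} {f g : ℝ → ℝ} (h0 : f z0 = g z0)
    (hf : z ≤ z0 → HasDerivAt f d z) (hg : z0 ≤ z → HasDerivAt g d z) :
    HasDerivAt (gl z0 f g) d z := by
  rcases lt_trichotomy z z0 with h | h | h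
  · exact (hf h.le).congr_of_eventuallyEq (gl_lt f g h)
  · subst h
    have h1 : HasDerivWithinAt (gl z f g) d (Iic z) z :=
      (hf le_rfl).hasDerivWithinAt.congr (fun y hy => by simp [gl, mem_Iic.1 hy]) (by simp [gl])
    have h2 : HasDerivWithinAt (gl z f g) d (Ici z) z := by
      refine (hg le_rfl).hasDerivWithinAt.congr (fun y hy => ?_) (by simp [gl, h0])
      rcases eq_or_lt_of_le (mem_Ici.1 hy) with h | h
      · subst h; simp [gl, h0]
      · simp [gl, not_le.2 h]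
    have := h1.union h2
    rwa [Iic_union_Ici, hasDerivWithinAt_univ] at this
  · apply (hg h.le).congr_of_eventuallyEq
    filter_upwards [Ioi_mem_nhds h] with y hy
    simp [gl, not_le.2 (mem_Ioi.1 hy)]

theorem exists_profile (m : ℕ) (hm : 9 ≤ m) : ∃ δ > (0:ℝ), ∃ α c : ℝ → ℝ,
    ContDiffOn ℝ ∞ α (Ioi (-δ)) ∧ ContDiffOn ℝ ∞ c (Ioi (-δ)) ∧ c 0 = 1 ∧
    (∀ z ∈ Ioi (-δ), 0 < α z ∧ 0 < c z) ∧
    ∀ z, 0 < z → HasDerivAt α (α z * (c z - 1 - z * α z) / (2 * z)) z ∧
      HasDerivAt c (c z * Ph m (z * α z) (c z) / (2 * z)) z := by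
  obtain ⟨δ, hδ, α, c, hα, hc, hα0, hc0, hode⟩ := exists_germ m (by omega)
  have hM : (9:ℝ) ≤ m := by exact_mod_cast hm
  have hn : Ioo (-δ) δ ∈ 𝓝 (0:ℝ) := Ioo_mem_nhds (by linarith) hδ
  have t1 := (hα.continuousOn.continuousAt hn).tendsto
  have t2 := (hc.continuousOn.continuousAt hn).tendsto
  rw [hα0] at t1
  rw [hc0] at t2
  have ev : ∀ᶠ z in 𝓝 (0:ℝ), z ∈ Ioo (-δ) δ ∧ z ∈ Iio (1 / 2 : ℝ) ∧ α z ∈ Ioo (1 / 2 : ℝ) 2 ∧
      c z ∈ Ioo (1 / 2 : ℝ) 2 := by
    filter_upwards [hn, Iio_mem_nhds (show (0:ℝ) < 1 / 2 by norm_num),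
      t1 (Ioo_mem_nhds (show (1 / 2 : ℝ) < 1 by norm_num) (show (1:ℝ) < 2 by norm_num)),
      t2 (Ioo_mem_nhds (show (1 / 2 : ℝ) < 1 by norm_num) (show (1:ℝ) < 2 by norm_num))]
      with z h1 h2 h3 h4 using ⟨h1, h2, h3, h4⟩
  obtain ⟨η, hη, hall⟩ := Metric.eventually_nhds_iff.1 ev
  have hall' : ∀ z, -η < z → z ≤ η / 2 → z ∈ Ioo (-δ) δ ∧ z ∈ Iio (1 / 2 : ℝ) ∧
      α z ∈ Ioo (1 / 2 : ℝ) 2 ∧ c z ∈ Ioo (1 / 2 : ℝ) 2 := fun z h1 h2 =>
    hall (by rw [dist_zero_right, Real.norm_eq_abs, abs_lt]; constructor <;> linarith)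
  set z0 := η / 2 with hz0
  have hz0p : 0 < z0 := by positivity
  obtain ⟨p1, p2, p3, p4⟩ := hall' z0 (by linarith) le_rfl
  obtain ⟨Y, hY0, hY⟩ := exists_orbit hM (a0 := z0 * α z0) (c0 := c z0)
    (mul_pos hz0p (by linarith [p3.1])) (by nlinarith [p3.1, p3.2, mem_Iio.1 p2])
    p4.1.le p4.2.le
  set s : ℝ → ℝ := fun z => (Real.log z - Real.log z0) / 2 with hs
  have hs0 : ∀ z, z0 ≤ z → 0 ≤ s z := fun z hz => by
    have := Real.log_le_log hz0p hz
    simp only [hs]; linarith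
  have ds : ∀ z, 0 < z → HasDerivAt s (z⁻¹ / 2) z := fun z hz =>
    ((Real.hasDerivAt_log hz.ne').sub_const _).div_const 2
  set α' := gl z0 α (fun z => (Y (s z)).1 / z) with hα'
  set c' := gl z0 c (fun z => (Y (s z)).2) with hc'
  have e1 : α z0 = (Y (s z0)).1 / z0 := by simp [hs, hY0, hz0p.ne']
  have e2 : c z0 = (Y (s z0)).2 := by simp [hs, hY0]
  have v1 : ∀ z, z ≤ z0 → α' z = α z ∧ c' z = c z := fun z hz => by simp [hα', hc', gl, hz]
  have v2 : ∀ z, z0 ≤ z → α' z = (Y (s z)).1 / z ∧ c' z = (Y (s z)).2 := fun z hz => by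
    rcases eq_or_lt_of_le hz with h | h
    · rw [← h, (v1 z0 le_rfl).1, (v1 z0 le_rfl).2]; exact ⟨e1, e2⟩
    · simp [hα', hc', gl, not_le.2 h]
  have pos : ∀ z ∈ Ioi (-η), 0 < α' z ∧ 0 < c' z := fun z hz => by
    rcases le_total z z0 with h | h
    · obtain ⟨-, -, q3, q4⟩ := hall' z hz h
      rw [(v1 z h).1, (v1 z h).2]; exact ⟨by linarith [q3.1], by linarith [q4.1]⟩
    · rw [(v2 z h).1, (v2 z h).2]
      exact ⟨div_pos (hY _ (hs0 z h)).2.1 (by linarith), (hY _ (hs0 z h)).2.2⟩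
  have ode : ∀ z, 0 < z → HasDerivAt α' (α' z * (c' z - 1 - z * α' z) / (2 * z)) z ∧
      HasDerivAt c' (c' z * Ph m (z * α' z) (c' z) / (2 * z)) z := fun z hz => by
    constructor
    · refine gl_deriv e1 (fun h => ?_) (fun h => ?_)
      · rw [(v1 z h).1, (v1 z h).2]
        exact (hode z ⟨hz, (hall' z (by linarith) h).1.2⟩).1
      · rw [(v2 z h).1, (v2 z h).2]
        have k1 := HasDerivAt.comp z (hY _ (hs0 z h)).1.fst (ds z hz)
        apply (k1.fun_div (hasDerivAt_id' z) hz.ne').congr_deriv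
        simp only [W, Function.comp]
        field_simp
        ring
    · refine gl_deriv e2 (fun h => ?_) (fun h => ?_)
      · rw [(v1 z h).1, (v1 z h).2]
        exact (hode z ⟨hz, (hall' z (by linarith) h).1.2⟩).2
      · rw [(v2 z h).1, (v2 z h).2]
        have k1 := HasDerivAt.comp z (hY _ (hs0 z h)).1.snd (ds z hz)
        apply k1.congr_deriv
        simp only [W]
        rw [mul_div_cancel₀ _ hz.ne']
        field_simp
  have sm : ∀ k : ℕ, ContDiffOn ℝ k α' (Ioi 0) ∧ ContDiffOn ℝ k c' (Ioi 0) := by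
    intro k
    induction k with
    | zero =>
      simp only [Nat.cast_zero, contDiffOn_zero]
      exact ⟨fun z hz => (ode z hz).1.continuousAt.continuousWithinAt,
        fun z hz => (ode z hz).2.continuousAt.continuousWithinAt⟩
    | succ k ih =>
      obtain ⟨i1, i2⟩ := ih
      push_cast
      constructor
      · rw [contDiffOn_succ_iff_deriv_of_isOpen isOpen_Ioi]
        refine ⟨fun z hz => (ode z hz).1.differentiableAt.differentiableWithinAt, by simp, ?_⟩
        refine ContDiffOn.congr (f := fun z => α' z * (c' z - 1 - z * α' z) / (2 * z)) ?_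
          (fun z hz => (ode z hz).1.deriv)
        apply ContDiffOn.div (by fun_prop) (by fun_prop)
        intro z hz
        have : 0 < z := hz
        positivity
      · rw [contDiffOn_succ_iff_deriv_of_isOpen isOpen_Ioi]
        refine ⟨fun z hz => (ode z hz).2.differentiableAt.differentiableWithinAt, by simp, ?_⟩
        refine ContDiffOn.congr (f := fun z => c' z * Ph m (z * α' z) (c' z) / (2 * z)) ?_
          (fun z hz => (ode z hz).2.deriv)
        unfold Ph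
        apply ContDiffOn.div _ (by fun_prop)
        · intro z hz
          have : 0 < z := hz
          positivity
        apply ContDiffOn.mul i2
        apply ContDiffOn.div (by fun_prop) (by fun_prop)
        intro z hz
        have : 0 < z := hz
        have := (pos z (by simp only [mem_Ioi]; linarith)).1
        positivity
  have sm1 : ContDiffOn ℝ ∞ α' (Ioi 0) := contDiffOn_infty.2 fun k => (sm k).1
  have sm2 : ContDiffOn ℝ ∞ c' (Ioi 0) := contDiffOn_infty.2 fun k => (sm k).2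
  refine ⟨η, hη, α', c', fun z hz => ?_, fun z hz => ?_, by rw [(v1 0 hz0p.le).2, hc0], pos, ode⟩
  · apply ContDiffAt.contDiffWithinAt
    rcases lt_or_ge 0 z with h | h
    · exact sm1.contDiffAt (Ioi_mem_nhds h)
    · exact (hα.contDiffAt (isOpen_Ioo.mem_nhds (hall' z hz (by linarith)).1)).congr_of_eventuallyEq
        (gl_lt _ _ (by linarith))
  · apply ContDiffAt.contDiffWithinAt
    rcases lt_or_ge 0 z with h | h
    · exact sm2.contDiffAt (Ioi_mem_nhds h)
    · exact (hc.contDiffAt (isOpen_Ioo.mem_nhds (hall' z hz (by linarith)).1)).congr_of_eventuallyEq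
        (gl_lt _ _ (by linarith))

end Vale.Agent.P252
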