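import Mathlib

/-! Matrices of the form `β·1 + A M Aᵀ` with `A` an `n × 2` frame. -/

namespace Vale.Agent.P252

open Matrix

variable {n : ℕ}

def fr (e x : Fin n → ℝ) : Matrix (Fin n) (Fin 2) ℝ := Matrix.of fun i k => ![e i, x i] k

def Sm (e x : Fin n → ℝ) (a b g d : ℝ) : Matrix (Fin n) (Fin n) ℝ :=
  b • (1 : Matrix (Fin n) (Fin n) ℝ) + fr e x * !![a - b, d; d, g] * (fr e x)ᵀ

lemma Sm_apply (e x : Fin n → ℝ) (a b g d : ℝ) (i j : Fin n) :
    Sm e x a b g d i j = b * (if i = j then 1 else 0) + (a - b) * (e i * e j) + g * (x i * x j)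
      + d * (e i * x j + x i * e j) := by
  simp [Sm, fr, Matrix.mul_apply, Fin.sum_univ_two, Matrix.one_apply]
  ring

structure Fr (e x : Fin n → ℝ) (z : ℝ) : Prop where
  ee : e ⬝ᵥ e = 1
  ex : e ⬝ᵥ x = 0
  xx : x ⬝ᵥ x = z

lemma Fr.gram {e x : Fin n → ℝ} {z : ℝ} (h : Fr e x z) :
    (fr e x)ᵀ * fr e x = !![1, 0; 0, z] := by
  have h1 := h.ee
  have h2 := h.ex
  have h3 := h.xx
  have h4 : x ⬝ᵥ e = 0 := by rw [dotProduct_comm]; exact h2
  ext i j
  fin_cases i <;> fin_cases j <;> simpa [fr, Matrix.mul_apply, dotProduct]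

lemma Fr.mul {e x : Fin n → ℝ} {z : ℝ} (h : Fr e x z) (b b' : ℝ)
    (M M' : Matrix (Fin 2) (Fin 2) ℝ) :
    (b • (1 : Matrix (Fin n) (Fin n) ℝ) + fr e x * M * (fr e x)ᵀ) *
      (b' • (1 : Matrix (Fin n) (Fin n) ℝ) + fr e x * M' * (fr e x)ᵀ) =
    (b * b') • (1 : Matrix (Fin n) (Fin n) ℝ) +
      fr e x * (b • M' + b' • M + M * !![1, 0; 0, z] * M') * (fr e x)ᵀ := by
  rw [← h.gram]
  simp only [Matrix.mul_add, Matrix.add_mul, Matrix.mul_smul, Matrix.smul_mul, Matrix.mul_one,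
    Matrix.one_mul, Matrix.mul_assoc, smul_smul, smul_add, mul_comm b' b]
  abel

lemma Fr.det {k : ℕ} {e x : Fin (k + 2) → ℝ} {z : ℝ} (h : Fr e x z) {a b g d : ℝ} (hb : b ≠ 0) :
    (Sm e x a b g d).det = b ^ k * (a * (b + g * z) - d ^ 2 * z) := by
  have : Sm e x a b g d = b • (1 + fr e x * (b⁻¹ • (!![a - b, d; d, g] * (fr e x)ᵀ))) := by
    simp only [Sm, smul_add, Matrix.mul_smul, smul_smul, mul_inv_cancel₀ hb, one_smul,
      Matrix.mul_assoc]
  rw [this, det_smul, det_one_add_mul_comm, Matrix.smul_mul, Matrix.mul_assoc, h.gram]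
  simp [det_fin_two]
  field_simp
  ring

lemma Fr.inv {e x : Fin n → ℝ} {z : ℝ} (h : Fr e x z) {a b g d E : ℝ} (hb : b ≠ 0)
    (hE : E = a * (b + g * z) - d ^ 2 * z) (hE0 : E ≠ 0) :
    (Sm e x a b g d)⁻¹ = Sm e x ((b + g * z) / E) (1 / b) ((d ^ 2 - a * g) / (b * E)) (-d / E) := by
  apply Matrix.inv_eq_right_inv
  unfold Sm
  rw [h.mul]
  have : b • !![(b + g * z) / E - 1 / b, -d / E; -d / E, (d ^ 2 - a * g) / (b * E)]
      + (1 / b) • !![a - b, d; d, g] + !![a - b, d; d, g] * !![1, 0; 0, z] *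
        !![(b + g * z) / E - 1 / b, -d / E; -d / E, (d ^ 2 - a * g) / (b * E)] = 0 := by
    ext i j
    fin_cases i <;> fin_cases j <;> simp <;> field_simp <;> rw [hE] <;> ring
  rw [this]
  simp [hb]

lemma Fr.pair {e x : Fin n → ℝ} {z : ℝ} (h : Fr e x z) (a b g d a' b' g' d' : ℝ) :
    ∑ i, ∑ j, Sm e x a b g d i j * Sm e x a' b' g' d' i j =
      (n - 2) * (b * b') + a * a' + (b + g * z) * (b' + g' * z) + 2 * d * d' * z := by
  have h1 : ∑ i, ∑ j, Sm e x a b g d i j * Sm e x a' b' g' d' i j =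
      trace (Sm e x a b g d * Sm e x a' b' g' d') := by
    simp only [trace, diag, Matrix.mul_apply]
    refine Finset.sum_congr rfl fun i _ => Finset.sum_congr rfl fun j _ => ?_
    congr 1
    simp only [Sm_apply, eq_comm (a := j)]
    ring
  rw [h1]
  unfold Sm
  rw [h.mul, trace_add, trace_smul, trace_one, trace_mul_cycle, h.gram]
  simp [trace_fin_two]
  ring

lemma Fr.posDef {e x : Fin n → ℝ} {z : ℝ} (h : Fr e x z) {a b g d : ℝ} (ha : 0 < a) (hb : 0 < b)
    (hE : 0 < a * (b + g * z) - d ^ 2 * z) : (Sm e x a b g d).PosDef := by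
  apply PosDef.of_dotProduct_mulVec_pos
  · ext i j
    simp only [conjTranspose_apply, star_trivial, Sm_apply, eq_comm (a := j)]
    ring
  intro v hv
  set t := e ⬝ᵥ v with ht
  set s := x ⬝ᵥ v with hs
  have hq : star v ⬝ᵥ (Sm e x a b g d *ᵥ v) =
      b * (v ⬝ᵥ v - t ^ 2) + a * t ^ 2 + 2 * d * t * s + g * s ^ 2 := by
    have h1 : (fr e x)ᵀ *ᵥ v = ![t, s] := by
      ext k
      fin_cases k <;> simp [fr, mulVec, dotProduct, ht, hs]
    unfold Sm
    rw [star_trivial, add_mulVec, dotProduct_add, smul_mulVec, one_mulVec, dotProduct_smul,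
      ← mulVec_mulVec, ← mulVec_mulVec, dotProduct_mulVec, ← mulVec_transpose, h1]
    simp [dotProduct, mulVec, Fin.sum_univ_two]
    ring
  rw [hq]
  have hvv : 0 < v ⬝ᵥ v := by
    have := dotProduct_star_self_pos_iff.2 hv
    rwa [star_trivial] at this
  set N := v ⬝ᵥ v - t ^ 2 with hN
  have hw : (v - t • e) ⬝ᵥ (v - t • e) = N := by
    simp only [sub_dotProduct, dotProduct_sub, smul_dotProduct, dotProduct_smul, h.ee,
      dotProduct_comm v e, ← ht, smul_eq_mul, hN]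
    ring
  have hxw : x ⬝ᵥ (v - t • e) = s := by
    simp only [dotProduct_sub, dotProduct_smul, dotProduct_comm x e, h.ex, ← hs, smul_eq_mul]
    ring
  have hN0 : 0 ≤ N := by
    rw [← hw]; exact Finset.sum_nonneg fun i _ => mul_self_nonneg _
  have hcs : s ^ 2 ≤ z * N := by
    have := Finset.sum_mul_sq_le_sq_mul_sq Finset.univ x (v - t • e)
    rw [← hxw, ← hw, ← h.xx]
    simpa only [dotProduct, sq] using this
  rcases eq_or_lt_of_le hN0 with h0 | h0
  · have hs0 : s = 0 := by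
      rw [← h0, mul_zero] at hcs
      exact pow_eq_zero_iff two_ne_zero |>.1 (le_antisymm hcs (sq_nonneg _))
    have : 0 < t ^ 2 := by linarith
    rw [hs0, ← h0]
    have := mul_pos ha this
    linarith
  · apply pos_of_mul_pos_left _ ha.le
    have key : (b * N + a * t ^ 2 + 2 * d * t * s + g * s ^ 2) * a =
        (a * t + d * s) ^ 2 + a * b * N + (a * g - d ^ 2) * s ^ 2 := by ring
    rw [key]
    rcases le_total 0 (a * g - d ^ 2) with h1 | h1
    · have := mul_nonneg h1 (sq_nonneg s)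
      have := mul_pos (mul_pos ha hb) h0
      positivity
    · have k1 := mul_le_mul_of_nonpos_left hcs h1
      have k2 := mul_pos hE h0
      nlinarith [sq_nonneg (a * t + d * s)]

end Vale.Agent.P252
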