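import Vale.Agent.P252.Defs
import Vale.Agent.P252.Mat

/-! Hessians of functions `(t² + f(|x|²))^κ φ(|x|²)`. -/

namespace Vale.Agent.P252

open Matrix

variable {n : ℕ}

def HD (G : (Fin n → ℝ) → ℝ) (p v : Fin n → ℝ) : Prop :=
  ∃ L : (Fin n → ℝ) →L[ℝ] ℝ, HasFDerivAt G L p ∧ ∀ i, L (Pi.single i 1) = v i

lemma HD.pd {G : (Fin n → ℝ) → ℝ} {p v : Fin n → ℝ} (h : HD G p v) (i : Fin n) :
    pd i G p = v i := by
  obtain ⟨L, h1, h2⟩ := h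
  rw [P252.pd, h1.fderiv, h2]

lemma HD.congr {G : (Fin n → ℝ) → ℝ} {p v w : Fin n → ℝ} (h : HD G p v) (e : ∀ i, v i = w i) :
    HD G p w := by
  obtain ⟨L, h1, h2⟩ := h
  exact ⟨L, h1, fun i => (h2 i).trans (e i)⟩

lemma HD.add {G H : (Fin n → ℝ) → ℝ} {p v w : Fin n → ℝ} (h : HD G p v) (k : HD H p w) :
    HD (fun q => G q + H q) p (fun i => v i + w i) := by
  obtain ⟨L, h1, h2⟩ := h
  obtain ⟨L', k1, k2⟩ := k
  exact ⟨_, h1.fun_add k1, fun i => by simp [h2, k2]⟩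

lemma HD.mul {G H : (Fin n → ℝ) → ℝ} {p v w : Fin n → ℝ} (h : HD G p v) (k : HD H p w) :
    HD (fun q => G q * H q) p (fun i => G p * w i + H p * v i) := by
  obtain ⟨L, h1, h2⟩ := h
  obtain ⟨L', k1, k2⟩ := k
  exact ⟨_, h1.fun_mul k1, fun i => by simp [h2, k2]⟩

lemma HD.const_mul {G : (Fin n → ℝ) → ℝ} {p v : Fin n → ℝ} (h : HD G p v) (c : ℝ) :
    HD (fun q => c * G q) p (fun i => c * v i) := by
  obtain ⟨L, h1, h2⟩ := h
  exact ⟨_, h1.const_mul c, fun i => by simp [h2]⟩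

lemma HD.scomp {G : (Fin n → ℝ) → ℝ} {p v : Fin n → ℝ} (h : HD G p v) {φ : ℝ → ℝ} {φ' : ℝ}
    (k : HasDerivAt φ φ' (G p)) : HD (fun q => φ (G q)) p (fun i => φ' * v i) := by
  obtain ⟨L, h1, h2⟩ := h
  exact ⟨_, k.comp_hasFDerivAt p h1, fun i => by simp [h2]⟩

lemma HD_coord (p : Fin n → ℝ) (j : Fin n) :
    HD (fun q => q j) p (fun i => if i = j then 1 else 0) :=
  ⟨_, hasFDerivAt_apply j p, fun i => by simp [Pi.single_apply, eq_comm]⟩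

lemma HD.sum {ι : Type} (s : Finset ι) {G : ι → (Fin n → ℝ) → ℝ} {p : Fin n → ℝ}
    {v : ι → Fin n → ℝ} (h : ∀ j, HD (G j) p (v j)) :
    HD (fun q => ∑ j ∈ s, G j q) p (fun i => ∑ j ∈ s, v j i) := by
  choose L h1 h2 using h
  exact ⟨_, HasFDerivAt.fun_sum fun j _ => h1 j, fun i => by simp [h2]⟩

variable {k : ℕ}

def e0 (k : ℕ) : Fin (k + 2) → ℝ := fun i => if i = 0 then 1 else 0

def xv (p : Fin (k + 2) → ℝ) : Fin (k + 2) → ℝ := fun i => (1 - e0 k i) * p i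

def zz (p : Fin (k + 2) → ℝ) : ℝ := ∑ i, xv p i * xv p i

lemma zz_nonneg (p : Fin (k + 2) → ℝ) : 0 ≤ zz p :=
  Finset.sum_nonneg fun _ _ => mul_self_nonneg _

lemma frame (p : Fin (k + 2) → ℝ) : Fr (e0 k) (xv p) (zz p) :=
  ⟨by simp [dotProduct, e0], by simp [dotProduct, e0, xv], rfl⟩

lemma HD_xv (p : Fin (k + 2) → ℝ) (j : Fin (k + 2)) :
    HD (fun q => xv q j) p (fun i => (if i = j then 1 else 0) - e0 k i * e0 k j) := by
  refine ((HD_coord p j).const_mul (1 - e0 k j)).congr fun i => ?_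
  by_cases h : i = j
  · subst h; by_cases h0 : i = 0 <;> simp [e0, h0]
  · by_cases h0 : i = 0
    · subst h0; simp [e0, h, Ne.symm h]
    · simp [e0, h, h0]

lemma HD_zz (p : Fin (k + 2) → ℝ) : HD zz p (fun i => 2 * xv p i) := by
  refine (HD.sum Finset.univ fun j => (HD_xv p j).mul (HD_xv p j)).congr fun i => ?_
  have h : ∑ j, xv p j * e0 k j = 0 := by simp [e0, xv]
  have : ∀ j, xv p j * ((if i = j then 1 else 0) - e0 k i * e0 k j)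
      + xv p j * ((if i = j then 1 else 0) - e0 k i * e0 k j)
      = 2 * (if i = j then xv p j else 0) - 2 * e0 k i * (xv p j * e0 k j) := by
    intro j; split_ifs <;> ring
  simp only [this, Finset.sum_sub_distrib, ← Finset.mul_sum, h]
  simp

def QQ (f : ℝ → ℝ) (p : Fin (k + 2) → ℝ) : ℝ := p 0 * p 0 + f (zz p)

lemma HD_qk {f φ : ℝ → ℝ} {f1 φ1 : ℝ} {p : Fin (k + 2) → ℝ} (hf : HasDerivAt f f1 (zz p))
    (hφ : HasDerivAt φ φ1 (zz p)) (hQ : 0 < QQ f p) (κ : ℝ) :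
    HD (fun q => QQ f q ^ κ * φ (zz q)) p (fun i =>
      2 * κ * (QQ f p ^ (κ - 1) * φ (zz p)) * (e0 k i * p 0)
      + (2 * κ * (QQ f p ^ (κ - 1) * (f1 * φ (zz p))) + 2 * (QQ f p ^ κ * φ1)) * xv p i) := by
  have h1 : HD (QQ f) p _ := ((HD_coord p 0).mul (HD_coord p 0)).add ((HD_zz p).scomp hf)
  have h2 := h1.scomp (Real.hasDerivAt_rpow_const (p := κ) (Or.inl hQ.ne'))
  refine (h2.mul ((HD_zz p).scomp hφ)).congr fun i => ?_
  simp only [e0]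
  ring

lemma hess_qk {f f1 f2 φ φ1 φ2 : ℝ → ℝ} (hf : ∀ z, 0 ≤ z → HasDerivAt f (f1 z) z)
    (hf1 : ∀ z, 0 ≤ z → HasDerivAt f1 (f2 z) z) (hφ : ∀ z, 0 ≤ z → HasDerivAt φ (φ1 z) z)
    (hφ1 : ∀ z, 0 ≤ z → HasDerivAt φ1 (φ2 z) z) (hpos : ∀ z, 0 ≤ z → 0 < f z) (κ : ℝ)
    (p : Fin (k + 2) → ℝ) :
    hess (fun q => QQ f q ^ κ * φ (zz q)) p = QQ f p ^ (κ - 2) • Sm (e0 k) (xv p)
      ((2 * κ * QQ f p + 4 * (p 0) ^ 2 * κ * (κ - 1)) * φ (zz p))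
      (2 * QQ f p * (κ * f1 (zz p) * φ (zz p) + QQ f p * φ1 (zz p)))
      (4 * (κ * (κ - 1) * f1 (zz p) ^ 2 * φ (zz p)
        + κ * QQ f p * (f2 (zz p) * φ (zz p) + 2 * f1 (zz p) * φ1 (zz p))
        + QQ f p ^ 2 * φ2 (zz p)))
      (4 * p 0 * κ * ((κ - 1) * f1 (zz p) * φ (zz p) + QQ f p * φ1 (zz p))) := by
  have hQ : ∀ q : Fin (k + 2) → ℝ, 0 < QQ f q := fun q => by
    have := hpos _ (zz_nonneg q)
    have := mul_self_nonneg (q 0)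
    unfold QQ; linarith
  ext i j
  have e1 : pd j (fun q => QQ f q ^ κ * φ (zz q)) = fun q =>
      2 * κ * (QQ f q ^ (κ - 1) * φ (zz q)) * (e0 k j * q 0)
      + (2 * κ * (QQ f q ^ (κ - 1) * (f1 (zz q) * φ (zz q)))
        + 2 * (QQ f q ^ κ * φ1 (zz q))) * xv q j := by
    ext q
    exact (HD_qk (hf _ (zz_nonneg q)) (hφ _ (zz_nonneg q)) (hQ q) κ).pd j
  have z0 := zz_nonneg p
  have a1 := HD_qk (hf _ z0) (hφ _ z0) (hQ p) (κ - 1)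
  have a2 := HD_qk (φ := fun z => f1 z * φ z) (hf _ z0) ((hf1 _ z0).fun_mul (hφ _ z0)) (hQ p) (κ - 1)
  have a3 := HD_qk (hf _ z0) (hφ1 _ z0) (hQ p) κ
  have a4 := ((a1.const_mul (2 * κ)).mul ((HD_coord p 0).const_mul (e0 k j))).add
    (((a2.const_mul (2 * κ)).add (a3.const_mul 2)).mul (HD_xv p j))
  rw [hess, of_apply, e1, a4.pd i, Matrix.smul_apply, Sm_apply]
  have r1 : QQ f p ^ (κ - 1) = QQ f p ^ (κ - 2) * QQ f p := by
    rw [← Real.rpow_add_one (hQ p).ne']; congr 1; ring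
  have r2 : QQ f p ^ κ = QQ f p ^ (κ - 2) * QQ f p * QQ f p := by
    rw [← r1, ← Real.rpow_add_one (hQ p).ne']; congr 1; ring
  have r3 : QQ f p ^ (κ - 1 - 1) = QQ f p ^ (κ - 2) := by congr 1; ring
  have r4 : (if i = 0 then (1:ℝ) else 0) = e0 k i := rfl
  rw [r1, r2, r3, r4, smul_eq_mul]
  ring

end Vale.Agent.P252
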