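import Vale.Agent.P252.Global
import Vale.Agent.P252.Hess

/-! Assembly of the counterexample. -/

namespace Vale.Agent.P252

open Set Filter Topology Matrix
open scoped ContDiff

lemma smul_Sm {n : ℕ} (e x : Fin n → ℝ) (s a b g d : ℝ) :
    s • Sm e x a b g d = Sm e x (s * a) (s * b) (s * g) (s * d) := by
  ext i j
  simp only [Matrix.smul_apply, Sm_apply, smul_eq_mul]
  ring

lemma ode_alg {M z α c a1 c1 : ℝ} (hz : 0 ≤ z) (hD : 2 * (z * α) + M ≠ 0) (h0 : z = 0 → c = 1)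
    (h1 : 2 * z * a1 = α * (c - 1 - z * α)) (h2 : 2 * z * c1 = c * Ph M (z * α) c) (μ μ1 : ℝ)
    (hμ : μ = -(M + 2) / 2 * (α * (2 * (z * α) + 2 * c + M - 1)) / (2 * (z * α) + M))
    (hμ1 : μ1 = (-(M + 2) / 2 * (a1 * (2 * (z * α) + 2 * c + M - 1)
        + α * (2 * (α + z * a1) + 2 * c1)) * (2 * (z * α) + M)
        - -(M + 2) / 2 * (α * (2 * (z * α) + 2 * c + M - 1)) * (2 * (α + z * a1)))
        / (2 * (z * α) + M) ^ 2) :
    (M - 1) * μ * c + (M + 2) / 2 * (M + 1) * (α * (c + z * α)) + μ + 2 * z * (μ1 + μ * μ)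
      + 2 * z * (M + 2) * α * μ = 0 := by
  rcases eq_or_lt_of_le hz with h | h
  · subst h
    rw [h0 rfl, hμ]
    simp only [mul_zero, zero_mul, zero_add, add_zero] at hD ⊢
    rw [h0 rfl]
    field_simp
    ring
  · have e1 : a1 = α * (c - 1 - z * α) / (2 * z) := by field_simp; linarith
    have e2 : c1 = c * Ph M (z * α) c / (2 * z) := by field_simp; linarith
    rw [hμ1, hμ, e1, e2, Ph]
    generalize hD' : 2 * (z * α) + M = D at hD ⊢
    field_simp
    rw [← hD']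
    ring

lemma final_alg {M z t f f1 f2 w w1 w2 Q e κ s s' : ℝ} (hQ : Q = t * t + f)
    (he : e = f * f1 + 2 * z * f * f2 - z * f1 ^ 2) (hκ : κ = (M + 2) / 2)
    (hs : s ≠ 0) (hQ0 : Q ≠ 0) (he0 : e ≠ 0) (hf1 : f1 ≠ 0)
    (ode : (M - 1) * w1 * e + f1 * (κ * (2 * κ - 1) * (f1 + 2 * z * f2) * w + f * w1
      + 2 * z * f * w2 + 4 * z * κ * f1 * w1) = 0) :
    (M - 1) * (1 / (s * (Q * f1)) * (s' * (2 * Q * (κ * f1 * w + Q * w1))))
      + (s * (Q * f1) + s * (2 * Q * f2 - f1 ^ 2) * z) / (s ^ 2 * (Q * e)) *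
        (s' * ((2 * κ * Q + 4 * t ^ 2 * κ * (κ - 1)) * w))
      + (1 / (s * (Q * f1)) + ((s * (-(t * f1))) ^ 2 - s * f * (s * (2 * Q * f2 - f1 ^ 2))) /
          (s * (Q * f1) * (s ^ 2 * (Q * e))) * z) *
        (s' * (2 * Q * (κ * f1 * w + Q * w1)) + s' * (4 * (κ * (κ - 1) * f1 ^ 2 * w
          + κ * Q * (f2 * w + 2 * f1 * w1) + Q ^ 2 * w2)) * z)
      + 2 * (-(s * (-(t * f1))) / (s ^ 2 * (Q * e))) *
        (s' * (4 * t * κ * ((κ - 1) * f1 * w + Q * w1))) * z = 0 := by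
  have k1 : 1 / (s * (Q * f1)) + ((s * (-(t * f1))) ^ 2 - s * f * (s * (2 * Q * f2 - f1 ^ 2))) /
      (s * (Q * f1) * (s ^ 2 * (Q * e))) * z = f / (s * (Q * e)) := by
    field_simp
    rw [he, hQ]; ring
  rw [k1]
  have k2 : M = 2 * κ - 2 := by rw [hκ]; ring
  field_simp
  subst k2
  rw [he] at ode
  rw [he, hQ]
  linear_combination (2 * s' * (t * t + f) ^ 2) * ode

theorem exists_counter (k : ℕ) (hk : 8 ≤ k) : ∃ u : (Fin (k + 2) → ℝ) → ℝ,
    ContDiff ℝ ∞ u ∧ (∀ x, (hess u x).PosDef) ∧ AffineMaximal u ∧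
    ∀ t : ℝ, u (Pi.single 0 t) = √(t ^ 2 + 1) := by
  obtain ⟨δ, hδ, α, c, hα, hc, hc0, hpos, hode⟩ := exists_profile (k + 1) (by omega)
  set M : ℝ := ((k + 1 : ℕ) : ℝ) with hM
  have hMk : M = k + 1 := by rw [hM]; push_cast; ring
  have hM0 : 0 < M := by rw [hMk]; positivity
  have mem : ∀ z, 0 ≤ z → z ∈ Ioi (-δ) := fun z hz => by simp only [mem_Ioi]; linarith
  have nb : ∀ z ∈ Ioi (-δ), Ioi (-δ) ∈ 𝓝 z := fun z hz => isOpen_Ioi.mem_nhds hz
  set F : ℝ → ℝ := fun z => ∫ y in (0:ℝ)..z, α y with hF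
  have dF : ∀ z ∈ Ioi (-δ), HasDerivAt F (α z) z := fun z hz => by
    have hsub : uIcc 0 z ⊆ Ioi (-δ) := fun y hy => by
      have h1 : min 0 z ≤ y := hy.1
      have h2 : -δ < min 0 z := lt_min (by linarith) hz
      exact h2.trans_le h1
    exact intervalIntegral.integral_hasDerivAt_right
      (hα.continuousOn.mono hsub).intervalIntegrable
      (hα.continuousOn.stronglyMeasurableAtFilter isOpen_Ioi z hz)
      (hα.continuousOn.continuousAt (nb z hz))
  have cF : ContDiffOn ℝ ∞ F (Ioi (-δ)) := by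
    rw [contDiffOn_infty_iff_deriv_of_isOpen isOpen_Ioi]
    exact ⟨fun z hz => (dF z hz).differentiableAt.differentiableWithinAt,
      hα.congr fun z hz => (dF z hz).deriv⟩
  have dα : ∀ z ∈ Ioi (-δ), HasDerivAt α (deriv α z) z := fun z hz =>
    ((hα.contDiffAt (nb z hz)).differentiableAt (by simp)).hasDerivAt
  have dc : ∀ z ∈ Ioi (-δ), HasDerivAt c (deriv c z) z := fun z hz =>
    ((hc.contDiffAt (nb z hz)).differentiableAt (by simp)).hasDerivAt
  have key1 : ∀ z, 0 ≤ z → 2 * z * deriv α z = α z * (c z - 1 - z * α z) := fun z hz => by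
    rcases eq_or_lt_of_le hz with h | h
    · subst h; simp [hc0]
    · rw [(hode z h).1.deriv]; field_simp
  have key2 : ∀ z, 0 ≤ z → 2 * z * deriv c z = c z * Ph M (z * α z) (c z) := fun z hz => by
    rcases eq_or_lt_of_le hz with h | h
    · subst h; simp [hc0, Ph]
    · rw [(hode z h).2.deriv]; field_simp
  set f : ℝ → ℝ := fun z => Real.exp (F z) with hf
  set f1 : ℝ → ℝ := fun z => α z * f z with hf1
  set f2 : ℝ → ℝ := fun z => deriv α z * f z + α z * (α z * f z) with hf2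
  have fpos : ∀ z, 0 < f z := fun z => Real.exp_pos _
  have df : ∀ z, 0 ≤ z → HasDerivAt f (f1 z) z := fun z hz =>
    (dF z (mem z hz)).exp.congr_deriv (mul_comm _ _)
  have df1 : ∀ z, 0 ≤ z → HasDerivAt f1 (f2 z) z := fun z hz =>
    (dα z (mem z hz)).fun_mul (df z hz)
  have hQ : ∀ q : Fin (k + 2) → ℝ, 0 < QQ f q := fun q => by
    have := fpos (zz q)
    have := mul_self_nonneg (q 0)
    unfold QQ; linarith
  have hDn : ∀ z, 0 ≤ z → 0 < 2 * (z * α z) + M := fun z hz => by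
    have := (hpos z (mem z hz)).1
    positivity
  set θ : ℝ := -(((k + 2 : ℕ) : ℝ) + 1) / (((k + 2 : ℕ) : ℝ) + 2) with hθ
  have hθ' : θ = -(M + 2) / (M + 3) := by rw [hθ, hMk]; push_cast; ring
  set w : ℝ → ℝ := fun z => Real.exp (θ * (M * Real.log (α z) + (M + 1) * F z + Real.log (c z)))
    with hw
  set μ : ℝ → ℝ := fun z =>
    -(M + 2) / 2 * (α z * (2 * (z * α z) + 2 * c z + M - 1)) / (2 * (z * α z) + M) with hμ
  set μ0 : ℝ → ℝ := fun z => θ * (M * (deriv α z / α z) + (M + 1) * α z + deriv c z / c z) with hμ0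
  have m1 : ∀ z, 0 < z → μ0 z = μ z := fun z hz => by
    have h1 := (hpos z (mem z hz.le)).1.ne'
    have h2 := (hpos z (mem z hz.le)).2.ne'
    have h3 := (hDn z hz.le).ne'
    have h4 : M + 3 ≠ 0 := by positivity
    simp only [hμ0, hμ, (hode z hz).1.deriv, (hode z hz).2.deriv, hθ', Ph]
    generalize hD' : 2 * (z * α z) + M = D at h3 ⊢
    field_simp
    rw [← hD']
    ring
  have m2 : ∀ z, 0 ≤ z → μ0 z = μ z := fun z hz => by
    rcases eq_or_lt_of_le hz with h | h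
    swap
    · exact m1 z h
    subst h
    have h0 := mem 0 le_rfl
    have c1 : ContinuousAt α 0 := hα.continuousOn.continuousAt (nb 0 h0)
    have c2 : ContinuousAt c 0 := hc.continuousOn.continuousAt (nb 0 h0)
    have c3 : ContinuousAt (deriv α) 0 :=
      (hα.continuousOn_deriv_of_isOpen isOpen_Ioi (by simp)).continuousAt (nb 0 h0)
    have c4 : ContinuousAt (deriv c) 0 :=
      (hc.continuousOn_deriv_of_isOpen isOpen_Ioi (by simp)).continuousAt (nb 0 h0)
    have h1 := (hpos 0 h0).1.ne'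
    have h2 := (hpos 0 h0).2.ne'
    have h3 := (hDn 0 le_rfl).ne'
    have t1 : ContinuousAt μ0 0 := by simp only [hμ0]; fun_prop (disch := assumption)
    have t2 : ContinuousAt μ 0 := by simp only [hμ]; fun_prop (disch := assumption)
    refine tendsto_nhds_unique_of_eventuallyEq (l := 𝓝[>] 0) (t1.tendsto.mono_left nhdsWithin_le_nhds)
      (t2.tendsto.mono_left nhdsWithin_le_nhds) ?_
    filter_upwards [self_mem_nhdsWithin] with z hz using m1 z hz
  have dw : ∀ z, 0 ≤ z → HasDerivAt w (μ z * w z) z := fun z hz => by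
    have h := mem z hz
    have := ((((((dα z h).log (hpos z h).1.ne').const_mul M).fun_add
      ((dF z h).const_mul (M + 1))).fun_add ((dc z h).log (hpos z h).2.ne')).const_mul θ).exp
    rw [← m2 z hz]
    exact this.congr_deriv (mul_comm _ _)
  set μ1 : ℝ → ℝ := fun z => (-(M + 2) / 2 * (deriv α z * (2 * (z * α z) + 2 * c z + M - 1)
        + α z * (2 * (α z + z * deriv α z) + 2 * deriv c z)) * (2 * (z * α z) + M)
        - -(M + 2) / 2 * (α z * (2 * (z * α z) + 2 * c z + M - 1)) * (2 * (α z + z * deriv α z)))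
        / (2 * (z * α z) + M) ^ 2 with hμ1
  have dμ : ∀ z, 0 ≤ z → HasDerivAt μ (μ1 z) z := fun z hz => by
    have h := mem z hz
    have a1 : HasDerivAt (fun z => 2 * (z * α z)) (2 * (α z + z * deriv α z)) z :=
      (((hasDerivAt_id' z).fun_mul (dα z h)).const_mul 2).congr_deriv (by ring)
    exact (((dα z h).fun_mul (((a1.fun_add ((dc z h).const_mul 2)).add_const M).sub_const 1)).const_mul
      (-(M + 2) / 2)).fun_div (a1.add_const M) (hDn z hz).ne'
  have dw1 : ∀ z, 0 ≤ z → HasDerivAt (fun z => μ z * w z) ((μ1 z + μ z * μ z) * w z) z :=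
    fun z hz => ((dμ z hz).fun_mul (dw z hz)).congr_deriv (by ring)
  set u : (Fin (k + 2) → ℝ) → ℝ := fun q => QQ f q ^ (1 / 2 : ℝ) * (fun _ : ℝ => (1:ℝ)) (zz q)
    with hu
  have he : ∀ z, 0 ≤ z → f z ^ 2 * α z * c z = f z * f1 z + 2 * z * f z * f2 z - z * f1 z ^ 2 :=
    fun z hz => by
    simp only [hf1, hf2]
    linear_combination (-(f z) ^ 2) * key1 z hz
  have epos : ∀ z, 0 ≤ z → 0 < f z ^ 2 * α z * c z := fun z hz => by
    have := fpos z
    have := (hpos z (mem z hz)).1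
    have := (hpos z (mem z hz)).2
    positivity
  have f1pos : ∀ z, 0 ≤ z → 0 < f1 z := fun z hz => mul_pos (hpos z (mem z hz)).1 (fpos z)
  have Hu : ∀ p, hess u p = Sm (e0 k) (xv p) (QQ f p ^ (1 / 2 - 2 : ℝ) * f (zz p))
      (QQ f p ^ (1 / 2 - 2 : ℝ) * (QQ f p * f1 (zz p)))
      (QQ f p ^ (1 / 2 - 2 : ℝ) * (2 * QQ f p * f2 (zz p) - f1 (zz p) ^ 2))
      (QQ f p ^ (1 / 2 - 2 : ℝ) * (-(p 0 * f1 (zz p)))) := fun p => by
    rw [hu, hess_qk (φ1 := fun _ => 0) (φ2 := fun _ => 0) df df1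
      (fun z _ => hasDerivAt_const z 1) (fun z _ => hasDerivAt_const z 0) (fun z _ => fpos z),
      smul_Sm]
    congr 1
    · congr 1; simp only [QQ]; ring
    all_goals ring
  have HE : ∀ p : Fin (k + 2) → ℝ, (QQ f p ^ (1 / 2 - 2 : ℝ)) ^ 2 *
      (QQ f p * (f (zz p) ^ 2 * α (zz p) * c (zz p))) = QQ f p ^ (1 / 2 - 2 : ℝ) * f (zz p) *
      (QQ f p ^ (1 / 2 - 2 : ℝ) * (QQ f p * f1 (zz p)) +
      QQ f p ^ (1 / 2 - 2 : ℝ) * (2 * QQ f p * f2 (zz p) - f1 (zz p) ^ 2) * zz p) -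
      (QQ f p ^ (1 / 2 - 2 : ℝ) * (-(p 0 * f1 (zz p)))) ^ 2 * zz p := fun p => by
    rw [he _ (zz_nonneg p)]
    generalize QQ f p ^ (1 / 2 - 2 : ℝ) = s
    simp only [QQ]
    ring
  have spos : ∀ p : Fin (k + 2) → ℝ, 0 < QQ f p ^ (1 / 2 - 2 : ℝ) := fun p =>
    Real.rpow_pos_of_pos (hQ p) _
  have Epos : ∀ p : Fin (k + 2) → ℝ, 0 < (QQ f p ^ (1 / 2 - 2 : ℝ)) ^ 2 *
      (QQ f p * (f (zz p) ^ 2 * α (zz p) * c (zz p))) := fun p =>
    mul_pos (pow_pos (spos p) 2) (mul_pos (hQ p) (epos _ (zz_nonneg p)))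
  have bpos : ∀ p : Fin (k + 2) → ℝ, 0 < QQ f p ^ (1 / 2 - 2 : ℝ) * (QQ f p * f1 (zz p)) :=
    fun p => mul_pos (spos p) (mul_pos (hQ p) (f1pos _ (zz_nonneg p)))
  have Hw : wfun u = fun q => QQ f q ^ ((M + 2) / 2) * w (zz q) := by
    ext p
    have z0 := zz_nonneg p
    have h1 := (hpos _ (mem _ z0)).1
    have h2 := (hpos _ (mem _ z0)).2
    rw [wfun, Hu, (frame p).det (bpos p).ne', ← HE, ← hθ]
    rw [Real.rpow_def_of_pos (mul_pos (pow_pos (bpos p) k) (Epos p)),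
      Real.rpow_def_of_pos (hQ p) ((M + 2) / 2), hw, ← Real.exp_add]
    congr 1
    have h3 := (hQ p).ne'
    have h4 := (spos p).ne'
    have h5 := (fpos (zz p)).ne'
    have h6 : Real.log (f (zz p)) = F (zz p) := Real.log_exp _
    simp only [hf1]
    simp (disch := positivity) only [Real.log_mul, Real.log_pow, Real.log_rpow (hQ p), h6]
    rw [hθ', hMk]
    push_cast
    field_simp
    ring
  refine ⟨u, ?_, fun p => ?_, fun p => ?_, fun t => ?_⟩
  · rw [contDiff_iff_contDiffAt]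
    intro p
    have c1 : ContDiff ℝ ∞ (zz (k := k)) := by unfold zz xv; fun_prop
    have c2 : ContDiffAt ℝ ∞ f (zz p) := (cF.contDiffAt (nb _ (mem _ (zz_nonneg p)))).exp
    have c3 : ContDiffAt ℝ ∞ (QQ f) p := by
      have := c2.comp p c1.contDiffAt
      exact ContDiffAt.add (by fun_prop) this
    exact (c3.rpow_const_of_ne (hQ p).ne').mul contDiffAt_const
  · rw [Hu]
    exact (frame p).posDef (mul_pos (spos p) (fpos _)) (bpos p) (by rw [← HE]; exact Epos p)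
  · have z0 := zz_nonneg p
    have h1 : ∀ i j, pd i (pd j (wfun u)) p = hess (wfun u) p i j := fun _ _ => rfl
    simp only [h1, cof, Matrix.smul_apply, smul_eq_mul, mul_assoc, ← Finset.mul_sum]
    apply mul_eq_zero_of_right
    rw [Hw, hess_qk df df1 dw dw1 (fun z _ => fpos z), smul_Sm, Hu,
      (frame p).inv (bpos p).ne' (HE p) (Epos p).ne', (frame p).pair]
    have hn : ((k + 2 : ℕ) : ℝ) - 2 = M - 1 := by rw [hMk]; push_cast; ring
    rw [hn]
    apply final_alg rfl (he _ z0) rfl (spos p).ne' (hQ p).ne' (epos _ z0).ne' (f1pos _ z0).ne'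
    have := ode_alg z0 (hDn _ z0).ne' (fun h => by rw [h, hc0]) (key1 _ z0) (key2 _ z0)
      (μ (zz p)) (μ1 (zz p)) rfl rfl
    simp only [hf1, hf2]
    linear_combination (α (zz p) * f (zz p) ^ 2 * w (zz p)) * this +
      ((M + 2) / 2 * (M + 1) * α (zz p) * f (zz p) ^ 2 * w (zz p)) * key1 _ z0
  · have h1 : zz (Pi.single 0 t : Fin (k + 2) → ℝ) = 0 := by
      unfold zz
      refine Finset.sum_eq_zero fun i _ => ?_
      by_cases h : i = 0 <;> simp [xv, e0, h]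
    simp only [hu, QQ, h1, hf, hF, intervalIntegral.integral_same, Real.exp_zero, mul_one,
      Pi.single_eq_same, Real.sqrt_eq_rpow, sq]

end Vale.Agent.P252
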